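/-
P235-M, helper216.  The static statement (S): for the ideal `[e, G_k]` of band permutations and an
increasing weight `f`, `k * ∑ f ≤ C * ∑ f r`.  Part 1: generic counting lemmas.
-/
import Mathlib

namespace Vale.Agent.P235.H216

open Finset Equiv

/-! ### transport -/

section dc

variable {P : Type*} [DecidableEq P] [Fintype P]

/-- double counting along the involutions `v ↦ v * swap c0 c` -/
theorem dc (A B : Finset (Equiv.Perm P)) (c0 : P) (H L : Equiv.Perm P → Finset P)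
    (wt f : Equiv.Perm P → ℝ) (hf : ∀ v, 0 ≤ f v) (hwt : ∀ v, 0 ≤ wt v)
    (h : ∀ v ∈ A, ∀ c ∈ H v, v * swap c0 c ∈ B ∧ c ∈ L (v * swap c0 c) ∧
      wt (v * swap c0 c) = wt v ∧ f v ≤ f (v * swap c0 c)) :
    ∑ v ∈ A, f v * wt v * (H v).card ≤ ∑ w ∈ B, f w * wt w * (L w).card := by
  classical
  have h1 : ∑ v ∈ A, f v * wt v * (H v).card
      = ∑ x ∈ A.sigma H, f x.1 * wt x.1 := by
    rw [Finset.sum_sigma]
    refine Finset.sum_congr rfl fun v _ => ?_
    simp only [Finset.sum_const, nsmul_eq_mul]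
    ring
  have h2 : ∑ w ∈ B, f w * wt w * (L w).card
      = ∑ x ∈ B.sigma L, f x.1 * wt x.1 := by
    rw [Finset.sum_sigma]
    refine Finset.sum_congr rfl fun v _ => ?_
    simp only [Finset.sum_const, nsmul_eq_mul]
    ring
  rw [h1, h2]
  set φ : (Σ _ : Equiv.Perm P, P) → (Σ _ : Equiv.Perm P, P) :=
    fun x => ⟨x.1 * swap c0 x.2, x.2⟩ with hφ
  have hinj : Set.InjOn φ (A.sigma H : Set (Σ _ : Equiv.Perm P, P)) := by
    rintro ⟨v, c⟩ _ ⟨v', c'⟩ _ he
    simp only [hφ, Sigma.mk.injEq, heq_eq_eq] at he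
    obtain ⟨h1, rfl⟩ := he
    have := mul_right_cancel h1
    subst this; rfl
  calc ∑ x ∈ A.sigma H, f x.1 * wt x.1
      ≤ ∑ x ∈ A.sigma H, f (φ x).1 * wt (φ x).1 := by
        refine Finset.sum_le_sum fun x hx => ?_
        rw [Finset.mem_sigma] at hx
        obtain ⟨_, _, h3, h4⟩ := h x.1 hx.1 x.2 hx.2
        simp only [hφ]
        rw [h3]
        exact mul_le_mul_of_nonneg_right h4 (hwt _)
    _ = ∑ y ∈ (A.sigma H).image φ, f y.1 * wt y.1 := by
        rw [Finset.sum_image hinj]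
    _ ≤ ∑ y ∈ B.sigma L, f y.1 * wt y.1 := by
        refine Finset.sum_le_sum_of_subset_of_nonneg ?_ fun y _ _ => mul_nonneg (hf _) (hwt _)
        intro y hy
        rw [Finset.mem_image] at hy
        obtain ⟨x, hx, rfl⟩ := hy
        rw [Finset.mem_sigma] at hx ⊢
        obtain ⟨h1, h2, _, _⟩ := h x.1 hx.1 x.2 hx.2
        exact ⟨h1, h2⟩

end dc

/-! ### the few-bad lemma -/

theorem log_le_sum (n D : ℕ) (hn : 1 ≤ n) :
    Real.log ((n + D : ℕ) : ℝ) - Real.log (n : ℝ) ≤ ∑ d ∈ Finset.range D, (1 : ℝ) / ((n + d : ℕ) : ℝ) := by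
  induction D with
  | zero => simp
  | succ D ih =>
    rw [Finset.sum_range_succ]
    have hpos : (0 : ℝ) < ((n + D : ℕ) : ℝ) := by
      have : 0 < n + D := by omega
      exact_mod_cast this
    have h1 : Real.log ((n + (D + 1) : ℕ) : ℝ) - Real.log ((n + D : ℕ) : ℝ)
        ≤ 1 / ((n + D : ℕ) : ℝ) := by
      rw [← Real.log_div (by positivity) hpos.ne']
      have h2 : ((n + (D + 1) : ℕ) : ℝ) / ((n + D : ℕ) : ℝ) = 1 + 1 / ((n + D : ℕ) : ℝ) := by
        rw [div_eq_iff hpos.ne']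
        field_simp
        push_cast; ring
      rw [h2]
      have := Real.log_le_sub_one_of_pos (x := 1 + 1 / ((n + D : ℕ) : ℝ)) (by positivity)
      linarith
    linarith

theorem four_le_sum (n D : ℕ) (hn : 1 ≤ n) (hD : 54 * n ≤ D) :
    (4 : ℝ) ≤ ∑ d ∈ Finset.range D, (1 : ℝ) / ((n + d : ℕ) : ℝ) := by
  refine le_trans ?_ (log_le_sum n D hn)
  have hn' : (0 : ℝ) < (n : ℝ) := by exact_mod_cast hn
  rw [← Real.log_div (by positivity) hn'.ne']
  rw [Real.le_log_iff_exp_le (by positivity)]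
  have h1 : (55 : ℝ) ≤ ((n + D : ℕ) : ℝ) / (n : ℝ) := by
    rw [le_div_iff₀ hn']
    have : 55 * n ≤ n + D := by omega
    exact_mod_cast this
  refine le_trans ?_ h1
  have h2 : Real.exp 4 = Real.exp 1 ^ 4 := by
    rw [← Real.exp_nat_mul]; norm_num
  rw [h2]
  have h3 := Real.exp_one_lt_d9
  have h4 := Real.exp_pos 1
  calc Real.exp 1 ^ 4 ≤ (2.7182818286 : ℝ) ^ 4 := by
        exact pow_le_pow_left₀ h4.le h3.le 4
    _ ≤ 55 := by norm_num

/-- sum over a finite set of naturals of a function of the number of larger elements -/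
theorem sum_above (I : Finset ℕ) (g : ℕ → ℝ) :
    ∑ y ∈ I, g (I.filter (fun z => y < z)).card = ∑ d ∈ Finset.range I.card, g d := by
  induction I using Finset.induction_on_min with
  | empty => simp
  | insert a s ha ih =>
    have hns : a ∉ s := fun h => lt_irrefl _ (ha a h)
    rw [Finset.sum_insert hns, Finset.card_insert_of_notMem hns, Finset.sum_range_succ, ← ih,
      add_comm]
    congr 1
    · refine Finset.sum_congr rfl fun y hy => ?_
      congr 2
      ext z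
      simp only [Finset.mem_filter, Finset.mem_insert]
      constructor
      · rintro ⟨rfl | h, h2⟩
        · exact absurd (ha y hy) (not_lt.2 h2.le)
        · exact ⟨h, h2⟩
      · rintro ⟨h, h2⟩; exact ⟨Or.inr h, h2⟩
    · congr 2
      ext z
      simp only [Finset.mem_filter, Finset.mem_insert]
      constructor
      · rintro ⟨rfl | h, h2⟩
        · exact absurd h2 (lt_irrefl _)
        · exact h
      · intro h; exact ⟨Or.inr h, ha z h⟩

/-- **few-bad lemma**, abstract form -/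
theorem few_bad {ι : Type*} [DecidableEq ι] (V : Finset ι) (U : Finset ℕ) (I : ι → Finset ℕ)
    (n : ι → ℕ) (hU : ∀ i ∈ V, I i ⊆ U) (hn : ∀ i ∈ V, 1 ≤ n i)
    (hD : ∀ i ∈ V, 54 * n i ≤ (I i).card)
    (hN : ∀ i ∈ V, ∀ y ∈ I i, (V.filter (fun j => y ∈ I j)).card ≤
      n i + ((I i).filter (fun z => y < z)).card) :
    4 * V.card ≤ U.card := by
  classical
  set N : ℕ → ℕ := fun y => (V.filter (fun j => y ∈ I j)).card with hNdef
  have h1 : ∀ i ∈ V, (4 : ℝ) ≤ ∑ y ∈ I i, (1 : ℝ) / (N y : ℝ) := by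
    intro i hi
    calc (4 : ℝ) ≤ ∑ d ∈ Finset.range (I i).card, (1 : ℝ) / ((n i + d : ℕ) : ℝ) :=
          four_le_sum _ _ (hn i hi) (hD i hi)
      _ = ∑ y ∈ I i, (1 : ℝ) / ((n i + ((I i).filter (fun z => y < z)).card : ℕ) : ℝ) :=
          (sum_above (I i) (fun d => (1 : ℝ) / ((n i + d : ℕ) : ℝ))).symm
      _ ≤ ∑ y ∈ I i, (1 : ℝ) / (N y : ℝ) := by
          refine Finset.sum_le_sum fun y hy => ?_
          have hpos : 0 < N y := Finset.card_pos.2 ⟨i, Finset.mem_filter.2 ⟨hi, hy⟩⟩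
          have hpos' : (0 : ℝ) < (N y : ℝ) := by exact_mod_cast hpos
          refine one_div_le_one_div_of_le hpos' ?_
          exact_mod_cast hN i hi y hy
  have h2 : ∑ i ∈ V, ∑ y ∈ I i, (1 : ℝ) / (N y : ℝ) ≤ (U.card : ℝ) := by
    have h3 : ∑ i ∈ V, ∑ y ∈ I i, (1 : ℝ) / (N y : ℝ)
        = ∑ y ∈ U, ∑ i ∈ V.filter (fun j => y ∈ I j), (1 : ℝ) / (N y : ℝ) := by
      refine Finset.sum_comm' ?_
      intro i y
      simp only [Finset.mem_filter]
      constructor
      · rintro ⟨hi, hy⟩; exact ⟨⟨hi, hy⟩, hU i hi hy⟩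
      · rintro ⟨⟨hi, hy⟩, _⟩; exact ⟨hi, hy⟩
    rw [h3]
    calc ∑ y ∈ U, ∑ i ∈ V.filter (fun j => y ∈ I j), (1 : ℝ) / (N y : ℝ)
        ≤ ∑ _y ∈ U, (1 : ℝ) := by
          refine Finset.sum_le_sum fun y _ => ?_
          rw [Finset.sum_const, nsmul_eq_mul]
          change (N y : ℝ) * (1 / (N y : ℝ)) ≤ 1
          by_cases h0 : (N y : ℝ) = 0
          · rw [h0]; simp
          · rw [mul_one_div, div_self h0]
      _ = (U.card : ℝ) := by simp
  have h4 : (V.card : ℝ) * 4 ≤ (U.card : ℝ) := by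
    calc (V.card : ℝ) * 4 = ∑ _i ∈ V, (4 : ℝ) := by rw [Finset.sum_const, nsmul_eq_mul]
      _ ≤ ∑ i ∈ V, ∑ y ∈ I i, (1 : ℝ) / (N y : ℝ) := Finset.sum_le_sum h1
      _ ≤ _ := h2
  have h5 : ((V.card * 4 : ℕ) : ℝ) ≤ (U.card : ℝ) := by push_cast; exact h4
  have h6 : V.card * 4 ≤ U.card := by exact_mod_cast h5
  omega

end Vale.Agent.P235.H216
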