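/-
P235-M, helper216.  The static statement (S), part 2: the band, counts, thresholds.

A permutation `v` of `Fin k ⊕ Fin k`: columns `inl i` = left column `i` (position `k - i`),
`inr i` = right column `i` (position `k + 1 + i`); values `inl j` = high value `j`
(value `2k - j`), `inr a` = low value `a` (value `a + 1`).
-/
import Vale.Agent.P235.R2.H216.SBasic

namespace Vale.Agent.P235.H216

open Finset Equiv Sum

variable {k : ℕ}

/-- permutations of the `2k` points -/
abbrev G (k : ℕ) := Equiv.Perm (Fin k ⊕ Fin k)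

/-- position order -/
def pos : Fin k ⊕ Fin k → ℤ
  | inl i => -((i : ℤ) + 1)
  | inr i => (i : ℤ) + 1

/-- value order -/
def val : Fin k ⊕ Fin k → ℤ
  | inl j => (k : ℤ) - j
  | inr a => (a : ℤ) - k

/-- the band -/
def Band (v : G k) : Prop :=
  (∀ i j : Fin k, v (inl i) = inl j → i ≤ j) ∧ (∀ i a : Fin k, v (inr i) = inr a → i ≤ a)

/-- `f` increases along up-swaps inside the band -/
def IncB (f : G k → ℝ) : Prop :=
  ∀ v, Band v → ∀ c c', pos c < pos c' → val (v c) < val (v c') → Band (v * swap c c') →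
    f v ≤ f (v * swap c c')

/-- number of columns `c` with `P c (v c)` -/
noncomputable def cnt (v : G k) (P : Fin k ⊕ Fin k → Fin k ⊕ Fin k → Prop) : ℕ := by
  classical exact (univ.filter (fun c => P c (v c))).card

theorem cnt_def (v : G k) (P : Fin k ⊕ Fin k → Fin k ⊕ Fin k → Prop)
    [DecidablePred (fun c => P c (v c))] :
    cnt v P = (univ.filter (fun c => P c (v c))).card := by
  unfold cnt
  congr

theorem cnt_congr {v w : G k} {P Q : Fin k ⊕ Fin k → Fin k ⊕ Fin k → Prop}
    (h : ∀ c, P c (v c) ↔ Q c (w c)) : cnt v P = cnt w Q := by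
  classical
  rw [cnt_def, cnt_def]
  congr 1
  ext c
  simp only [mem_filter, mem_univ, true_and]
  exact h c

theorem cnt_le_cnt {v : G k} {P Q : Fin k ⊕ Fin k → Fin k ⊕ Fin k → Prop}
    (h : ∀ c, P c (v c) → Q c (v c)) : cnt v P ≤ cnt v Q := by
  classical
  rw [cnt_def, cnt_def]
  refine Finset.card_le_card ?_
  intro c
  simp only [mem_filter, mem_univ, true_and]
  exact h c

/-- counts are invariant under a swap of two columns which `P` does not distinguish -/
theorem cnt_swap {v : G k} {c1 c2 : Fin k ⊕ Fin k}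
    {P : Fin k ⊕ Fin k → Fin k ⊕ Fin k → Prop} (h : ∀ y, P c1 y ↔ P c2 y) :
    cnt (v * swap c1 c2) P = cnt v P := by
  classical
  rw [cnt_def, cnt_def]
  have hs : ∀ c y, P (swap c1 c2 c) y ↔ P c y := by
    intro c y
    by_cases h1 : c = c1
    · subst h1; rw [swap_apply_left]; exact (h y).symm
    by_cases h2 : c = c2
    · subst h2; rw [swap_apply_right]; exact h y
    · rw [swap_apply_of_ne_of_ne h1 h2]
  refine Finset.card_bij (fun c _ => swap c1 c2 c) ?_ ?_ ?_
  · intro c hc
    rw [mem_filter] at hc ⊢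
    exact ⟨mem_univ _, (hs _ _).2 hc.2⟩
  · intro a _ b _ h; exact (swap c1 c2).injective h
  · intro c hc
    rw [mem_filter] at hc
    refine ⟨swap c1 c2 c, ?_, by simp⟩
    rw [mem_filter]
    refine ⟨mem_univ _, ?_⟩
    have h3 := (hs c (v c)).2 hc.2
    have h4 : (v * swap c1 c2) (swap c1 c2 c) = v c := by
      rw [Perm.mul_apply]; simp
    rw [h4]
    exact h3

/-- counts are invariant under a swap of two columns whose values are both counted or both not
counted at both columns -/
theorem cnt_swap' {v : G k} {c1 c2 : Fin k ⊕ Fin k}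
    {P : Fin k ⊕ Fin k → Fin k ⊕ Fin k → Prop}
    (h1 : P c1 (v c2) ↔ P c1 (v c1)) (h2 : P c2 (v c1) ↔ P c2 (v c2)) :
    cnt (v * swap c1 c2) P = cnt v P := by
  refine cnt_congr fun c => ?_
  rw [Perm.mul_apply]
  by_cases e1 : c = c1
  · subst e1; rw [swap_apply_left]; exact h1
  by_cases e2 : c = c2
  · subst e2; rw [swap_apply_right]; exact h2
  · rw [swap_apply_of_ne_of_ne e1 e2]

/-- left column -/
def isL : Fin k ⊕ Fin k → Prop
  | inl _ => True
  | inr _ => False

/-- low value `< t` -/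
def loLt (t : ℕ) : Fin k ⊕ Fin k → Prop
  | inl _ => False
  | inr a => a.val < t

/-- high value `< s` -/
def hiLt (s : ℕ) : Fin k ⊕ Fin k → Prop
  | inl j => j.val < s
  | inr _ => False

/-- column in the box -/
def colOK (s t : ℕ) : Fin k ⊕ Fin k → Prop
  | inl i => i.val ≤ s
  | inr i => i.val ≤ t

/-- value in the box -/
def valOK (s t : ℕ) : Fin k ⊕ Fin k → Prop
  | inl j => s ≤ j.val
  | inr a => t ≤ a.val

@[simp] theorem isL_inl (i : Fin k) : isL (inl i : Fin k ⊕ Fin k) ↔ True := Iff.rfl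
@[simp] theorem isL_inr (i : Fin k) : isL (inr i : Fin k ⊕ Fin k) ↔ False := Iff.rfl
@[simp] theorem loLt_inl (t : ℕ) (i : Fin k) : loLt t (inl i : Fin k ⊕ Fin k) ↔ False := Iff.rfl
@[simp] theorem loLt_inr (t : ℕ) (i : Fin k) : loLt t (inr i : Fin k ⊕ Fin k) ↔ i.val < t := Iff.rfl
@[simp] theorem hiLt_inl (t : ℕ) (i : Fin k) : hiLt t (inl i : Fin k ⊕ Fin k) ↔ i.val < t := Iff.rfl
@[simp] theorem hiLt_inr (t : ℕ) (i : Fin k) : hiLt t (inr i : Fin k ⊕ Fin k) ↔ False := Iff.rfl
@[simp] theorem colOK_inl (s t : ℕ) (i : Fin k) :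
    colOK s t (inl i : Fin k ⊕ Fin k) ↔ i.val ≤ s := Iff.rfl
@[simp] theorem colOK_inr (s t : ℕ) (i : Fin k) :
    colOK s t (inr i : Fin k ⊕ Fin k) ↔ i.val ≤ t := Iff.rfl
@[simp] theorem valOK_inl (s t : ℕ) (i : Fin k) :
    valOK s t (inl i : Fin k ⊕ Fin k) ↔ s ≤ i.val := Iff.rfl
@[simp] theorem valOK_inr (s t : ℕ) (i : Fin k) :
    valOK s t (inr i : Fin k ⊕ Fin k) ↔ t ≤ i.val := Iff.rfl

/-- number of LL points with value `< t` -/
noncomputable def cLL (v : G k) (t : ℕ) : ℕ := cnt v (fun c y => isL c ∧ loLt t y)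
/-- number of RR points with value `< s` -/
noncomputable def cRR (v : G k) (s : ℕ) : ℕ := cnt v (fun c y => ¬ isL c ∧ hiLt s y)
/-- number of LU points with value `< s` -/
noncomputable def cLU (v : G k) (s : ℕ) : ℕ := cnt v (fun c y => isL c ∧ hiLt s y)
/-- number of RD points with value `< t` -/
noncomputable def cRD (v : G k) (t : ℕ) : ℕ := cnt v (fun c y => ¬ isL c ∧ loLt t y)
/-- LL points with value in `[a, t)` -/
noncomputable def dLL (v : G k) (a t : ℕ) : ℕ := cnt v (fun c y => isL c ∧ loLt t y ∧ ¬ loLt a y)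
/-- left columns of the box -/
noncomputable def nL (v : G k) (s t : ℕ) : ℕ := cnt v (fun c y => isL c ∧ colOK s t c ∧ valOK s t y)
/-- points of the box with high value -/
noncomputable def nhi (v : G k) (s t : ℕ) : ℕ := cnt v (fun c y => colOK s t c ∧ valOK s t y ∧ isL y)
/-- points of the box with low value -/
noncomputable def nlo (v : G k) (s t : ℕ) : ℕ :=
  cnt v (fun c y => colOK s t c ∧ valOK s t y ∧ ¬ isL y)
/-- left points beyond the box with low value `< t` -/
noncomputable def bel (v : G k) (s t : ℕ) : ℕ := cnt v (fun c y => isL c ∧ ¬ colOK s t c ∧ loLt t y)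
/-- the number of crossings of the middle -/
noncomputable def rr (v : G k) : ℕ := cnt v (fun c y => isL c ∧ isL y)

/-- the threshold paired with `s` -/
noncomputable def thr (v : G k) (s : ℕ) : ℕ := sInf {t | cRR v s ≤ cLL v t}

end Vale.Agent.P235.H216
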