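/-
P235-M, helper216.  The static statement (S), part 3: counting identities and thresholds.
-/
import Vale.Agent.P235.R2.H216.SDefs

namespace Vale.Agent.P235.H216

open Finset Equiv Sum

variable {k : ℕ}

theorem cnt_split (v : G k) (P Q : Fin k ⊕ Fin k → Fin k ⊕ Fin k → Prop) :
    cnt v P = cnt v (fun c y => P c y ∧ Q c y) + cnt v (fun c y => P c y ∧ ¬ Q c y) := by
  classical
  rw [cnt_def, cnt_def, cnt_def]
  rw [← Finset.card_filter_add_card_filter_not (s := univ.filter (fun c => P c (v c)))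
    (fun c => Q c (v c))]
  rw [Finset.filter_filter, Finset.filter_filter]

theorem cnt_val (v : G k) (P : Fin k ⊕ Fin k → Prop) [DecidablePred P] :
    cnt v (fun _ y => P y) = (univ.filter P).card := by
  classical
  rw [cnt_def]
  refine Finset.card_bij (fun c _ => v c) ?_ ?_ ?_
  · intro c hc; rw [mem_filter] at hc ⊢; exact ⟨mem_univ _, hc.2⟩
  · intro a _ b _ h; exact v.injective h
  · intro y hy
    rw [mem_filter] at hy
    refine ⟨v.symm y, ?_, by simp⟩
    rw [mem_filter]
    refine ⟨mem_univ _, ?_⟩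
    rw [Equiv.apply_symm_apply]; exact hy.2

theorem cnt_col (v : G k) (P : Fin k ⊕ Fin k → Prop) [DecidablePred P] :
    cnt v (fun c _ => P c) = (univ.filter P).card := by
  classical
  rw [cnt_def]

theorem card_hiLt {s : ℕ} (hs : s ≤ k) [DecidablePred (hiLt (k := k) s)] :
    (univ.filter (hiLt (k := k) s)).card = s := by
  classical
  refine Eq.trans (Eq.symm ?_) (Finset.card_range s)
  refine Finset.card_bij (fun i hi => inl ⟨i, lt_of_lt_of_le (mem_range.1 hi) hs⟩) ?_ ?_ ?_
  · intro i hi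
    rw [mem_filter]
    exact ⟨mem_univ _, mem_range.1 hi⟩
  · intro a _ b _ h
    simpa using h
  · rintro (j | a) h
    · rw [mem_filter] at h
      exact ⟨j.val, mem_range.2 h.2, rfl⟩
    · rw [mem_filter] at h
      exact h.2.elim

theorem card_loLt {s : ℕ} (hs : s ≤ k) [DecidablePred (loLt (k := k) s)] :
    (univ.filter (loLt (k := k) s)).card = s := by
  classical
  refine Eq.trans (Eq.symm ?_) (Finset.card_range s)
  refine Finset.card_bij (fun i hi => inr ⟨i, lt_of_lt_of_le (mem_range.1 hi) hs⟩) ?_ ?_ ?_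
  · intro i hi
    rw [mem_filter]
    exact ⟨mem_univ _, mem_range.1 hi⟩
  · intro a _ b _ h
    simpa using h
  · rintro (j | a) h
    · rw [mem_filter] at h
      exact h.2.elim
    · rw [mem_filter] at h
      exact ⟨a.val, mem_range.2 h.2, rfl⟩

theorem card_colL {s t : ℕ} (hs : s < k)
    [DecidablePred (fun c : Fin k ⊕ Fin k => isL c ∧ colOK s t c)] :
    (univ.filter (fun c : Fin k ⊕ Fin k => isL c ∧ colOK s t c)).card = s + 1 := by
  classical
  rw [← Finset.card_range (s + 1)]
  symm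
  refine Finset.card_bij
    (fun i hi => inl ⟨i, lt_of_lt_of_le (mem_range.1 hi) (Nat.succ_le_of_lt hs)⟩) ?_ ?_ ?_
  · intro i hi
    rw [mem_filter]
    refine ⟨mem_univ _, trivial, ?_⟩
    have := mem_range.1 hi
    show i ≤ s
    omega
  · intro a _ b _ h
    simpa using h
  · rintro (j | a) h
    · rw [mem_filter] at h
      have h1 : j.val ≤ s := h.2.2
      exact ⟨j.val, mem_range.2 (by omega), rfl⟩
    · rw [mem_filter] at h
      exact h.2.1.elim

theorem card_isL [DecidablePred (isL (k := k))] : (univ.filter (isL (k := k))).card = k := by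
  classical
  have h := card_hiLt (k := k) (s := k) le_rfl
  refine Eq.trans ?_ h
  congr 1
  ext c
  simp only [mem_filter, mem_univ, true_and]
  rcases c with j | a
  · simp
  · simp

/-- the high values `< s` -/
theorem cRR_add_cLU (v : G k) {s : ℕ} (hs : s ≤ k) : cRR v s + cLU v s = s := by
  classical
  have h := cnt_split v (fun _ y => hiLt s y) (fun c _ => isL c)
  rw [cnt_val, card_hiLt hs] at h
  have h1 : cRR v s = cnt v (fun c y => hiLt s y ∧ ¬ isL c) := cnt_congr fun c => and_comm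
  have h2 : cLU v s = cnt v (fun c y => hiLt s y ∧ isL c) := cnt_congr fun c => and_comm
  omega

/-- the low values `< t` -/
theorem cLL_add_cRD (v : G k) {t : ℕ} (ht : t ≤ k) : cLL v t + cRD v t = t := by
  classical
  have h := cnt_split v (fun _ y => loLt t y) (fun c _ => isL c)
  rw [cnt_val, card_loLt ht] at h
  have h1 : cLL v t = cnt v (fun c y => loLt t y ∧ isL c) := cnt_congr fun c => and_comm
  have h2 : cRD v t = cnt v (fun c y => loLt t y ∧ ¬ isL c) := cnt_congr fun c => and_comm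
  omega

theorem cLL_k_add_rr (v : G k) : cLL v k + rr v = k := by
  classical
  have h := cnt_split v (fun c _ => isL c) (fun _ y => isL y)
  rw [cnt_col, card_isL] at h
  have h1 : cLL v k = cnt v (fun c y => isL c ∧ ¬ isL y) := by
    refine cnt_congr fun c => ?_
    rcases v c with j | a
    · simp
    · simp
  have h2 : rr v = cnt v (fun c y => isL c ∧ isL y) := rfl
  omega

theorem cRR_k_add_rr (v : G k) : cRR v k + rr v = k := by
  have h := cRR_add_cLU v (s := k) le_rfl
  have h1 : cLU v k = rr v := by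
    refine cnt_congr fun c => ?_
    rcases v c with j | a
    · simp
    · simp
  omega

theorem cRR_mono (v : G k) {s s' : ℕ} (h : s ≤ s') : cRR v s ≤ cRR v s' := by
  refine cnt_le_cnt fun c => ?_
  rcases v c with j | a
  · simp only [hiLt_inl]; rintro ⟨h1, h2⟩; exact ⟨h1, by omega⟩
  · simp

theorem cLL_mono (v : G k) {s s' : ℕ} (h : s ≤ s') : cLL v s ≤ cLL v s' := by
  refine cnt_le_cnt fun c => ?_
  rcases v c with j | a
  · simp
  · simp only [loLt_inr]; rintro ⟨h1, h2⟩; exact ⟨h1, by omega⟩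

theorem cRR_le_k (v : G k) (s : ℕ) : cRR v s ≤ cRR v k := by
  refine cnt_le_cnt fun c => ?_
  rcases v c with j | a
  · simp only [hiLt_inl]; rintro ⟨h1, h2⟩; exact ⟨h1, j.2⟩
  · simp

theorem cRR_le_cLL_k (v : G k) (s : ℕ) : cRR v s ≤ cLL v k := by
  have h1 := cRR_le_k v s
  have h2 := cLL_k_add_rr v
  have h3 := cRR_k_add_rr v
  omega

/-- one more value adds at most one column -/
theorem cLL_succ_le (v : G k) (t : ℕ) : cLL v (t + 1) ≤ cLL v t + 1 := by
  classical
  have h := cnt_split v (fun c y => isL c ∧ loLt (t + 1) y) (fun _ y => loLt t y)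
  have h1 : cnt v (fun c y => (isL c ∧ loLt (t + 1) y) ∧ loLt t y) ≤ cLL v t := by
    refine cnt_le_cnt fun c => ?_
    rintro ⟨⟨h1, _⟩, h2⟩; exact ⟨h1, h2⟩
  have h2 : cnt v (fun c y => (isL c ∧ loLt (t + 1) y) ∧ ¬ loLt t y) ≤ 1 := by
    rw [cnt_def, Finset.card_le_one]
    intro c hc c' hc'
    rw [mem_filter] at hc hc'
    apply v.injective
    obtain ⟨_, ⟨_, h1⟩, h2⟩ := hc
    obtain ⟨_, ⟨_, h1'⟩, h2'⟩ := hc'
    revert h1 h2 h1' h2'
    rcases v c with j | a <;> rcases v c' with j' | a' <;> simp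
    intro h1 h2 h3 h4
    apply Fin.ext; omega
  have h3 : cLL v (t + 1) = cnt v (fun c y => isL c ∧ loLt (t + 1) y) := rfl
  omega

theorem thr_mem (v : G k) (s : ℕ) : cRR v s ≤ cLL v (thr v s) :=
  Nat.sInf_mem (s := {t | cRR v s ≤ cLL v t}) ⟨k, cRR_le_cLL_k v s⟩

theorem thr_le (v : G k) {s t : ℕ} (h : cRR v s ≤ cLL v t) : thr v s ≤ t :=
  Nat.sInf_le (s := {t | cRR v s ≤ cLL v t}) h

theorem lt_of_lt_thr (v : G k) {s t : ℕ} (h : t < thr v s) : cLL v t < cRR v s := by
  by_contra hc
  push Not at hc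
  exact absurd (thr_le v hc) (not_le.2 h)

theorem thr_le_k (v : G k) (s : ℕ) : thr v s ≤ k := thr_le v (cRR_le_cLL_k v s)

theorem cLL_zero (v : G k) : cLL v 0 = 0 := by
  classical
  unfold cLL
  rw [cnt_def, Finset.card_eq_zero, Finset.filter_eq_empty_iff]
  intro c _
  rcases v c with j | a
  · simp
  · simp

theorem cRR_zero (v : G k) : cRR v 0 = 0 := by
  classical
  unfold cRR
  rw [cnt_def, Finset.card_eq_zero, Finset.filter_eq_empty_iff]
  intro c _
  rcases v c with j | a
  · simp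
  · simp

/-- **value pairing** -/
theorem cLL_thr (v : G k) (s : ℕ) : cLL v (thr v s) = cRR v s := by
  refine le_antisymm ?_ (thr_mem v s)
  rcases Nat.eq_zero_or_pos (thr v s) with h | h
  · rw [h, cLL_zero]; exact Nat.zero_le _
  · obtain ⟨t, ht⟩ : ∃ t, thr v s = t + 1 := ⟨thr v s - 1, by omega⟩
    have h1 := lt_of_lt_thr v (s := s) (t := t) (by omega)
    have h2 := cLL_succ_le v t
    rw [ht]; omega

theorem thr_mono (v : G k) {s s' : ℕ} (h : s ≤ s') : thr v s ≤ thr v s' :=
  thr_le v ((cRR_mono v h).trans (thr_mem v s'))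

/-- **the box identity** -/
theorem nL_eq {v : G k} (hv : Band v) {s t : ℕ} (hs : s < k) (h : cLL v t = cRR v s) :
    nL v s t = 1 + bel v s t := by
  classical
  have h0 : cnt v (fun c _ => isL c ∧ colOK s t c) = s + 1 := by
    rw [cnt_col, card_colL hs]
  have h1 := cnt_split v (fun c _ => isL c ∧ colOK s t c) (fun _ y => valOK s t y)
  have h2 := cnt_split v (fun c y => (isL c ∧ colOK s t c) ∧ ¬ valOK s t y)
    (fun _ y => hiLt s y)
  have h3 : cnt v (fun c y => (isL c ∧ colOK s t c) ∧ valOK s t y) = nL v s t :=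
    cnt_congr fun c => and_assoc
  have h4 : cnt v (fun c y => ((isL c ∧ colOK s t c) ∧ ¬ valOK s t y) ∧ hiLt s y)
      = cLU v s := by
    refine cnt_congr fun c => ?_
    constructor
    · rintro ⟨⟨⟨a1, a2⟩, a3⟩, a4⟩; exact ⟨a1, a4⟩
    · rintro ⟨a1, a4⟩
      rcases c with i | i
      · rcases hvi : v (inl i) with j | a
        · rw [hvi] at a4
          have h5 := hv.1 i j hvi
          simp only [hiLt_inl] at a4
          have h6 : i.val ≤ j.val := h5
          refine ⟨⟨⟨trivial, ?_⟩, ?_⟩, a4⟩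
          · show i.val ≤ s
            omega
          · simp only [valOK_inl]; omega
        · rw [hvi] at a4; exact a4.elim
      · exact a1.elim
  have h5 : cnt v (fun c y => ((isL c ∧ colOK s t c) ∧ ¬ valOK s t y) ∧ ¬ hiLt s y)
      = cnt v (fun c y => (isL c ∧ loLt t y) ∧ colOK s t c) := by
    refine cnt_congr fun c => ?_
    rcases v c with j | a
    · simp only [valOK_inl, hiLt_inl, loLt_inl]
      constructor
      · rintro ⟨⟨_, a3⟩, a4⟩; exact (a3 (by omega)).elim
      · rintro ⟨⟨_, a3⟩, _⟩; exact a3.elim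
    · simp only [valOK_inr, hiLt_inr, loLt_inr]
      constructor
      · rintro ⟨⟨⟨a1, a2⟩, a3⟩, a4⟩; exact ⟨⟨a1, by omega⟩, a2⟩
      · rintro ⟨⟨a1, a3⟩, a2⟩; exact ⟨⟨⟨a1, a2⟩, by omega⟩, fun h => h⟩
  have h6 := cnt_split v (fun c y => isL c ∧ loLt t y) (fun c _ => colOK s t c)
  have h7 : cnt v (fun c y => (isL c ∧ loLt t y) ∧ ¬ colOK s t c) = bel v s t := by
    refine cnt_congr fun c => ?_
    constructor
    · rintro ⟨⟨a1, a2⟩, a3⟩; exact ⟨a1, a3, a2⟩
    · rintro ⟨a1, a3, a2⟩; exact ⟨⟨a1, a2⟩, a3⟩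
  have h8 : cLL v t = cnt v (fun c y => isL c ∧ loLt t y) := rfl
  have h9 := cRR_add_cLU v (s := s) hs.le
  omega

end Vale.Agent.P235.H216
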