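/-
P235-M, helper216.  The static statement (S), part 4: the two stages of moves.
-/
import Vale.Agent.P235.R2.H216.SIdent

namespace Vale.Agent.P235.H216

open Finset Equiv Sum

variable {k : ℕ}

theorem thr_congr {v w : G k} {s : ℕ} (h1 : cRR w s = cRR v s)
    (h2 : ∀ t, t ≤ thr v s → cLL w t = cLL v t) : thr w s = thr v s := by
  have h3 : thr w s ≤ thr v s := by
    refine thr_le w ?_
    rw [h1, h2 _ le_rfl]
    exact thr_mem v s
  refine le_antisymm h3 ?_
  by_contra hc
  push Not at hc
  have h4 := lt_of_lt_thr v hc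
  have h5 := thr_mem w s
  rw [h2 _ h3, h1] at h5
  omega

/-- exchanging two points of the box stays in the band -/
theorem band_box {v : G k} (hv : Band v) {s t : ℕ} {c1 c2 : Fin k ⊕ Fin k}
    (h1 : colOK s t c1) (h2 : colOK s t c2) (h3 : valOK s t (v c1)) (h4 : valOK s t (v c2)) :
    Band (v * swap c1 c2) := by
  have key : ∀ c, (v * swap c1 c2) c = v c ∨ (colOK s t c ∧ valOK s t ((v * swap c1 c2) c)) := by
    intro c
    rw [Perm.mul_apply]
    by_cases e1 : c = c1
    · subst e1; rw [swap_apply_left]; exact Or.inr ⟨h1, h4⟩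
    by_cases e2 : c = c2
    · subst e2; rw [swap_apply_right]; exact Or.inr ⟨h2, h3⟩
    · rw [swap_apply_of_ne_of_ne e1 e2]; exact Or.inl rfl
  constructor
  · intro i j hij
    rcases key (inl i) with h | ⟨h, h'⟩
    · rw [h] at hij; exact hv.1 i j hij
    · rw [hij] at h'
      simp only [colOK_inl, valOK_inl] at h h'
      exact Fin.le_def.2 (by omega)
  · intro i j hij
    rcases key (inr i) with h | ⟨h, h'⟩
    · rw [h] at hij; exact hv.2 i j hij
    · rw [hij] at h'
      simp only [colOK_inr, valOK_inr] at h h'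
      exact Fin.le_def.2 (by omega)

theorem not_loLt_of_valOK {s t t' : ℕ} (h : t' ≤ t) {y : Fin k ⊕ Fin k} (hy : valOK s t y) :
    ¬ loLt t' y := by
  rcases y with j | a
  · simp
  · simp only [valOK_inr] at hy
    simp only [loLt_inr]; omega

theorem not_hiLt_of_valOK {s t s' : ℕ} (h : s' ≤ s) {y : Fin k ⊕ Fin k} (hy : valOK s t y) :
    ¬ hiLt s' y := by
  rcases y with j | a
  · simp only [valOK_inl] at hy
    simp only [hiLt_inl]; omega
  · simp

theorem cLL_box {v : G k} {s t : ℕ} {c1 c2 : Fin k ⊕ Fin k}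
    (h3 : valOK s t (v c1)) (h4 : valOK s t (v c2)) {t' : ℕ} (ht : t' ≤ t) :
    cLL (v * swap c1 c2) t' = cLL v t' := by
  refine cnt_swap' ?_ ?_
  · constructor
    · rintro ⟨_, h⟩; exact (not_loLt_of_valOK ht h4 h).elim
    · rintro ⟨_, h⟩; exact (not_loLt_of_valOK ht h3 h).elim
  · constructor
    · rintro ⟨_, h⟩; exact (not_loLt_of_valOK ht h3 h).elim
    · rintro ⟨_, h⟩; exact (not_loLt_of_valOK ht h4 h).elim

theorem cRR_box {v : G k} {s t : ℕ} {c1 c2 : Fin k ⊕ Fin k}
    (h3 : valOK s t (v c1)) (h4 : valOK s t (v c2)) {s' : ℕ} (hs : s' ≤ s) :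
    cRR (v * swap c1 c2) s' = cRR v s' := by
  refine cnt_swap' ?_ ?_
  · constructor
    · rintro ⟨_, h⟩; exact (not_hiLt_of_valOK hs h4 h).elim
    · rintro ⟨_, h⟩; exact (not_hiLt_of_valOK hs h3 h).elim
  · constructor
    · rintro ⟨_, h⟩; exact (not_hiLt_of_valOK hs h3 h).elim
    · rintro ⟨_, h⟩; exact (not_hiLt_of_valOK hs h4 h).elim

theorem nhi_swap {v : G k} {s t : ℕ} {c1 c2 : Fin k ⊕ Fin k}
    (h1 : colOK s t c1) (h2 : colOK s t c2) : nhi (v * swap c1 c2) s t = nhi v s t := by
  refine cnt_swap fun y => ?_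
  constructor
  · rintro ⟨_, h⟩; exact ⟨h2, h⟩
  · rintro ⟨_, h⟩; exact ⟨h1, h⟩

theorem nlo_swap {v : G k} {s t : ℕ} {c1 c2 : Fin k ⊕ Fin k}
    (h1 : colOK s t c1) (h2 : colOK s t c2) : nlo (v * swap c1 c2) s t = nlo v s t := by
  refine cnt_swap fun y => ?_
  constructor
  · rintro ⟨_, h⟩; exact ⟨h2, h⟩
  · rintro ⟨_, h⟩; exact ⟨h1, h⟩

theorem nL_swap {v : G k} {s t : ℕ} {c1 c2 : Fin k ⊕ Fin k} (l1 : isL c1) (l2 : isL c2)
    (h1 : colOK s t c1) (h2 : colOK s t c2) : nL (v * swap c1 c2) s t = nL v s t := by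
  refine cnt_swap fun y => ?_
  constructor
  · rintro ⟨_, _, h⟩; exact ⟨l2, h2, h⟩
  · rintro ⟨_, _, h⟩; exact ⟨l1, h1, h⟩

theorem cLL_left {v : G k} {t : ℕ} {c1 c2 : Fin k ⊕ Fin k} (l1 : isL c1) (l2 : isL c2) :
    cLL (v * swap c1 c2) t = cLL v t := by
  refine cnt_swap fun y => ?_
  constructor
  · rintro ⟨_, h⟩; exact ⟨l2, h⟩
  · rintro ⟨_, h⟩; exact ⟨l1, h⟩

theorem cRR_left {v : G k} {t : ℕ} {c1 c2 : Fin k ⊕ Fin k} (l1 : isL c1) (l2 : isL c2) :
    cRR (v * swap c1 c2) t = cRR v t := by
  refine cnt_swap fun y => ?_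
  constructor
  · rintro ⟨h, _⟩; exact (h l1).elim
  · rintro ⟨h, _⟩; exact (h l2).elim

theorem dLL_left {v : G k} {a t : ℕ} {c1 c2 : Fin k ⊕ Fin k} (l1 : isL c1) (l2 : isL c2) :
    dLL (v * swap c1 c2) a t = dLL v a t := by
  refine cnt_swap fun y => ?_
  constructor
  · rintro ⟨_, h⟩; exact ⟨l2, h⟩
  · rintro ⟨_, h⟩; exact ⟨l1, h⟩

/-- the state is usable at `s`: at least as many high as low values in the box -/
def Use (v : G k) (s : Fin k) : Prop :=
  Band v ∧ nlo v s (thr v s) ≤ nhi v s (thr v s)

/-- `L_s` is in the box with a low value -/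
def MA (s : Fin k) (v : G k) : Prop := Use v s ∧ ∃ a, v (inl s) = inr a ∧ thr v s ≤ a.val

/-- `L_s` has a high value -/
def MB (s : Fin k) (v : G k) : Prop := Use v s ∧ isL (v (inl s))

/-- `L_s` is outside of the box, not very bad -/
def MD (s : Fin k) (v : G k) : Prop :=
  Use v s ∧ ∃ a, v (inl s) = inr a ∧ a.val < thr v s ∧ dLL v a.val (thr v s) ≤ 54 * nL v s (thr v s)

open scoped Classical in
theorem stage2 {f : G k → ℝ} (hf0 : ∀ v, 0 ≤ f v) (hf : IncB f) (s : Fin k) :
    ∑ v ∈ univ.filter (MA s), f v ≤ ∑ v ∈ univ.filter (MB s), f v := by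
  set wt : G k → ℝ := fun v => 1 / ((nhi v s (thr v s) : ℝ) + (nlo v s (thr v s) : ℝ)) with hwt
  set H : G k → Finset (Fin k ⊕ Fin k) := fun v =>
    univ.filter (fun c => colOK s (thr v s) c ∧ valOK s (thr v s) (v c) ∧ isL (v c)) with hH
  set L : G k → Finset (Fin k ⊕ Fin k) := fun v =>
    univ.filter (fun c => colOK s (thr v s) c ∧ valOK s (thr v s) (v c) ∧ ¬ isL (v c)) with hL
  have hHc : ∀ v, (H v).card = nhi v s (thr v s) := fun v => by rw [nhi, cnt_def]
  have hLc : ∀ v, (L v).card = nlo v s (thr v s) := fun v => by rw [nlo, cnt_def]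
  have hmain := dc (univ.filter (MA s)) (univ.filter (MB s)) (inl s) H L wt f hf0
    (fun v => by rw [hwt]; positivity) (by
      intro v hv c hc
      rw [mem_filter] at hv hc
      obtain ⟨_, ⟨hb, hu⟩, a, hva, ha⟩ := hv
      obtain ⟨_, c1, c2, c3⟩ := hc
      have s1 : colOK s (thr v s) (inl s) := le_rfl
      have s2 : valOK s (thr v s) (v (inl s)) := by rw [hva]; exact ha
      have hne : c ≠ inl s := by
        rintro rfl; rw [hva] at c3; exact c3
      have hband : Band (v * swap (inl s) c) := band_box hb s1 c1 s2 c2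
      have hthr : thr (v * swap (inl s) c) s = thr v s :=
        thr_congr (cRR_box s2 c2 le_rfl) (fun t ht => cLL_box s2 c2 ht)
      have hw1 : (v * swap (inl s) c) (inl s) = v c := by rw [Perm.mul_apply, swap_apply_left]
      have hw2 : (v * swap (inl s) c) c = v (inl s) := by rw [Perm.mul_apply, swap_apply_right]
      refine ⟨?_, ?_, ?_, ?_⟩
      · rw [mem_filter]
        refine ⟨mem_univ _, ⟨hband, ?_⟩, ?_⟩
        · rw [hthr, nhi_swap s1 c1, nlo_swap s1 c1]; exact hu
        · rw [hw1]; exact c3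
      · rw [hL]
        simp only [mem_filter, mem_univ, true_and]
        rw [hthr, hw2, hva]
        exact ⟨c1, ha, fun h => h⟩
      · simp only [hwt]
        rw [hthr, nhi_swap s1 c1, nlo_swap s1 c1]
      · refine hf v hb _ _ ?_ ?_ hband
        · rcases c with q | q
          · simp only [colOK_inl] at c1
            have hq : q ≠ s := fun h => hne (by rw [h])
            have hq2 : q.val ≠ s.val := fun h => hq (Fin.ext h)
            simp only [pos]
            have : q.val < s.val := by omega
            omega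
          · simp only [pos]; omega
        · rw [hva]
          rcases hvc : v c with j | j
          · simp only [val]
            have := j.2
            have := a.2
            omega
          · rw [hvc] at c3; exact c3.elim)
  have hA : ∑ v ∈ univ.filter (MA s), f v * (1 / 2) ≤
      ∑ v ∈ univ.filter (MA s), f v * wt v * ((H v).card : ℝ) := by
    refine Finset.sum_le_sum fun v hv => ?_
    rw [mem_filter] at hv
    obtain ⟨_, ⟨hb, hu⟩, a, hva, ha⟩ := hv
    rw [hHc, mul_assoc]
    refine mul_le_mul_of_nonneg_left ?_ (hf0 v)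
    have hpos : 0 < nlo v s (thr v s) := by
      rw [← hLc]
      refine Finset.card_pos.2 ⟨inl s, ?_⟩
      rw [hL]
      simp only [mem_filter, mem_univ, true_and]
      rw [hva]
      exact ⟨le_rfl, ha, fun h => h⟩
    simp only [hwt]
    have h1 : (0 : ℝ) < (nlo v s (thr v s) : ℝ) := by exact_mod_cast hpos
    have h2 : (nlo v s (thr v s) : ℝ) ≤ (nhi v s (thr v s) : ℝ) := by exact_mod_cast hu
    rw [div_mul_eq_mul_div, one_mul, div_le_div_iff₀ (by norm_num) (by linarith)]
    linarith
  have hB : ∑ v ∈ univ.filter (MB s), f v * wt v * ((L v).card : ℝ) ≤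
      ∑ v ∈ univ.filter (MB s), f v * (1 / 2) := by
    refine Finset.sum_le_sum fun v hv => ?_
    rw [mem_filter] at hv
    obtain ⟨_, ⟨hb, hu⟩, hl⟩ := hv
    rw [hLc, mul_assoc]
    refine mul_le_mul_of_nonneg_left ?_ (hf0 v)
    simp only [hwt]
    have h1 : (0 : ℝ) ≤ (nlo v s (thr v s) : ℝ) := Nat.cast_nonneg _
    have h2 : (nlo v s (thr v s) : ℝ) ≤ (nhi v s (thr v s) : ℝ) := by exact_mod_cast hu
    rcases eq_or_lt_of_le h1 with h3 | h3
    · rw [← h3]; norm_num
    · rw [div_mul_eq_mul_div, one_mul, div_le_div_iff₀ (by linarith) (by norm_num)]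
      linarith
  rw [← Finset.sum_mul] at hA hB
  linarith

open scoped Classical in
theorem stage1 {f : G k → ℝ} (hf0 : ∀ v, 0 ≤ f v) (hf : IncB f) (s : Fin k) :
    ∑ v ∈ univ.filter (MD s), f v ≤
      54 * (∑ v ∈ univ.filter (MA s), f v + ∑ v ∈ univ.filter (MB s), f v) := by
  set wt : G k → ℝ := fun v => 1 / (nL v s (thr v s) : ℝ) with hwt
  set H : G k → Finset (Fin k ⊕ Fin k) := fun v =>
    univ.filter (fun c => isL c ∧ colOK s (thr v s) c ∧ valOK s (thr v s) (v c)) with hH
  set L : G k → Finset (Fin k ⊕ Fin k) := fun v =>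
    univ.filter (fun c => isL c ∧ ∃ a : Fin k, v c = inr a ∧ a.val < thr v s ∧
      dLL v a.val (thr v s) ≤ 54 * nL v s (thr v s)) with hL
  have hHc : ∀ v, (H v).card = nL v s (thr v s) := fun v => by rw [nL, cnt_def]
  have hLc : ∀ v, (L v).card ≤ 54 * nL v s (thr v s) := by
    intro v
    rcases (L v).eq_empty_or_nonempty with h | h
    · rw [h]; simp
    · obtain ⟨c, hc, hmin⟩ := Finset.exists_min_image (L v) (fun c => val (v c)) h
      rw [hL] at hc
      simp only [mem_filter, mem_univ, true_and] at hc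
      obtain ⟨_, a, hva, ha, hd⟩ := hc
      refine le_trans ?_ hd
      rw [dLL, cnt_def]
      refine Finset.card_le_card ?_
      intro c' hc'
      have hm := hmin c' hc'
      rw [hL] at hc'
      simp only [mem_filter, mem_univ, true_and] at hc' ⊢
      obtain ⟨l', a', hva', ha', _⟩ := hc'
      rw [hva, hva'] at hm
      simp only [val] at hm
      rw [hva']
      refine ⟨l', ha', ?_⟩
      simp only [loLt_inr]; omega
  have hmain := dc (univ.filter (MD s)) (univ.filter (MA s) ∪ univ.filter (MB s)) (inl s) H L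
    wt f hf0 (fun v => by rw [hwt]; positivity) (by
      intro v hv c hc
      rw [mem_filter] at hv hc
      obtain ⟨_, ⟨hb, hu⟩, a, hva, ha, hd⟩ := hv
      obtain ⟨_, c0, c1, c2⟩ := hc
      have s0 : isL (inl s : Fin k ⊕ Fin k) := trivial
      have s1 : colOK s (thr v s) (inl s) := le_rfl
      have hw1 : (v * swap (inl s) c) (inl s) = v c := by rw [Perm.mul_apply, swap_apply_left]
      have hw2 : (v * swap (inl s) c) c = v (inl s) := by rw [Perm.mul_apply, swap_apply_right]
      have hthr : thr (v * swap (inl s) c) s = thr v s :=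
        thr_congr (cRR_left s0 c0) (fun t _ => cLL_left s0 c0)
      have hband : Band (v * swap (inl s) c) := by
        constructor
        · intro i j hij
          by_cases e1 : (inl i : Fin k ⊕ Fin k) = inl s
          · rw [e1, hw1] at hij
            rw [hij] at c2
            have e2 : i = s := by simpa using e1
            subst e2
            exact c2
          by_cases e2 : (inl i : Fin k ⊕ Fin k) = c
          · rw [e2, hw2, hva] at hij
            simp at hij
          · rw [Perm.mul_apply, swap_apply_of_ne_of_ne e1 e2] at hij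
            exact hb.1 i j hij
        · intro i j hij
          have e1 : (inr i : Fin k ⊕ Fin k) ≠ inl s := by simp
          have e2 : (inr i : Fin k ⊕ Fin k) ≠ c := by
            rintro rfl; exact c0
          rw [Perm.mul_apply, swap_apply_of_ne_of_ne e1 e2] at hij
          exact hb.2 i j hij
      have huse : Use (v * swap (inl s) c) s := by
        refine ⟨hband, ?_⟩
        rw [hthr, nhi_swap s1 c1, nlo_swap s1 c1]; exact hu
      refine ⟨?_, ?_, ?_, ?_⟩
      · rw [mem_union, mem_filter, mem_filter]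
        rcases hvc : v c with j | b
        · right
          refine ⟨mem_univ _, huse, ?_⟩
          rw [hw1, hvc]; trivial
        · left
          refine ⟨mem_univ _, huse, b, ?_, ?_⟩
          · rw [hw1, hvc]
          · rw [hthr]; rw [hvc] at c2; exact c2
      · rw [hL]
        simp only [mem_filter, mem_univ, true_and]
        refine ⟨c0, a, ?_, ?_, ?_⟩
        · rw [hw2, hva]
        · rw [hthr]; exact ha
        · rw [hthr, dLL_left s0 c0, nL_swap s0 c0 s1 c1]; exact hd
      · simp only [hwt]
        rw [hthr, nL_swap s0 c0 s1 c1]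
      · refine hf v hb _ _ ?_ ?_ hband
        · rcases c with q | q
          · simp only [colOK_inl] at c1
            have hq2 : q.val ≠ s.val := by
              intro h
              have hq : q = s := Fin.ext h
              subst hq
              rw [hva] at c2
              simp only [valOK_inr] at c2
              omega
            simp only [pos]
            have : q.val < s.val := by omega
            omega
          · exact c0.elim
        · rw [hva]
          rcases hvc : v c with j | b
          · simp only [val]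
            have := j.2
            have := a.2
            omega
          · rw [hvc] at c2
            simp only [valOK_inr] at c2
            simp only [val]
            omega)
  have hD : ∑ v ∈ univ.filter (MD s), f v ≤
      ∑ v ∈ univ.filter (MD s), f v * wt v * ((H v).card : ℝ) := by
    refine Finset.sum_le_sum fun v hv => ?_
    rw [mem_filter] at hv
    obtain ⟨_, ⟨hb, hu⟩, _⟩ := hv
    rw [hHc, mul_assoc]
    have h1 := nL_eq hb s.2 (cLL_thr v s)
    have h2 : (0 : ℝ) < (nL v s (thr v s) : ℝ) := by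
      have : 0 < nL v s (thr v s) := by omega
      exact_mod_cast this
    simp only [hwt]
    rw [one_div, inv_mul_cancel₀ h2.ne', mul_one]
  have hAB : ∑ v ∈ univ.filter (MA s) ∪ univ.filter (MB s), f v * wt v * ((L v).card : ℝ) ≤
      ∑ v ∈ univ.filter (MA s) ∪ univ.filter (MB s), f v * 54 := by
    refine Finset.sum_le_sum fun v _ => ?_
    rw [mul_assoc]
    refine mul_le_mul_of_nonneg_left ?_ (hf0 v)
    simp only [hwt]
    have h1 : ((L v).card : ℝ) ≤ 54 * (nL v s (thr v s) : ℝ) := by exact_mod_cast hLc v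
    rcases Nat.eq_zero_or_pos (nL v s (thr v s)) with h0 | h0
    · rw [h0]; simp
    · have h2 : (0 : ℝ) < (nL v s (thr v s) : ℝ) := by exact_mod_cast h0
      rw [div_mul_eq_mul_div, one_mul, div_le_iff₀ h2]
      exact h1
  have hun : ∑ v ∈ univ.filter (MA s) ∪ univ.filter (MB s), f v ≤
      ∑ v ∈ univ.filter (MA s), f v + ∑ v ∈ univ.filter (MB s), f v := by
    have := Finset.sum_union_inter (s₁ := univ.filter (MA s)) (s₂ := univ.filter (MB s)) (f := f)
    have h2 : 0 ≤ ∑ v ∈ univ.filter (MA s) ∩ univ.filter (MB s), f v :=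
      Finset.sum_nonneg fun v _ => hf0 v
    linarith
  rw [← Finset.sum_mul] at hAB
  linarith

end Vale.Agent.P235.H216
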