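/-
P235-M, helper216.  The static statement (S), part 5: few bad thresholds.
-/
import Vale.Agent.P235.R2.H216.SMoves

namespace Vale.Agent.P235.H216

open Finset Equiv Sum

variable {k : ℕ}

/-- `s` is the high value of a right column -/
def RRval (v : G k) (s : Fin k) : Prop := ∃ i, v (inr i) = inl s

/-- `t` is the low value of a left column -/
def LLval (v : G k) (t : ℕ) : Prop := ∃ i a : Fin k, v (inl i) = inr a ∧ a.val = t

theorem cRR_lt {v : G k} {s : Fin k} (h : RRval v s) {s' : ℕ} (hs : s.val < s') :
    cRR v s < cRR v s' := by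
  classical
  obtain ⟨i, hi⟩ := h
  have h1 := cnt_split v (fun c y => ¬ isL c ∧ hiLt s' y) (fun _ y => hiLt s y)
  have h2 : cnt v (fun c y => (¬ isL c ∧ hiLt s' y) ∧ hiLt s y) = cRR v s := by
    refine cnt_congr fun c => ?_
    rcases v c with j | a
    · simp only [hiLt_inl]
      constructor
      · rintro ⟨⟨a1, _⟩, a2⟩; exact ⟨a1, a2⟩
      · rintro ⟨a1, a2⟩; exact ⟨⟨a1, by omega⟩, a2⟩
    · simp
  have h3 : 0 < cnt v (fun c y => (¬ isL c ∧ hiLt s' y) ∧ ¬ hiLt s y) := by
    rw [cnt_def]
    refine Finset.card_pos.2 ⟨inr i, ?_⟩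
    rw [mem_filter]
    refine ⟨mem_univ _, ?_⟩
    rw [hi]
    refine ⟨⟨fun h => h, hs⟩, ?_⟩
    simp
  have h4 : cRR v s' = cnt v (fun c y => ¬ isL c ∧ hiLt s' y) := rfl
  omega

theorem thr_lt {v : G k} {s : Fin k} (h : RRval v s) {s' : ℕ} (hs : s.val < s') :
    thr v s < thr v s' := by
  have h1 := cRR_lt h hs
  have h2 := cLL_thr v s
  have h3 := cLL_thr v s'
  have h4 := thr_mono v hs.le
  rcases h4.lt_or_eq with h5 | h5
  · exact h5
  · rw [h5] at h2; omega

theorem thr_lt_k {v : G k} {s : Fin k} (h : RRval v s) : thr v s < k := by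
  have h1 := cRR_lt h s.2
  have h2 := cLL_thr v s
  have h3 := thr_le_k v s
  have h4 := cRR_k_add_rr v
  have h5 := cLL_k_add_rr v
  rcases h3.lt_or_eq with h6 | h6
  · exact h6
  · rw [h6] at h2; omega

/-- the low value of left column `s` -/
def lowOf : Fin k ⊕ Fin k → ℕ
  | inl _ => 0
  | inr a => a.val

open scoped Classical in
/-- very bad thresholds -/
noncomputable def VL (v : G k) : Finset (Fin k) :=
  univ.filter (fun s => RRval v s ∧ LLval v (thr v s) ∧ ∃ a, v (inl s) = inr a ∧
    a.val < thr v s ∧ 54 * nL v s (thr v s) < dLL v a.val (thr v s))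

open scoped Classical in
theorem card_LLint (v : G k) (a t : ℕ) :
    ((range k).filter (fun y => LLval v y ∧ a ≤ y ∧ y < t)).card = dLL v a t := by
  rw [dLL, cnt_def]
  symm
  refine Finset.card_bij (fun c _ => lowOf (v c)) ?_ ?_ ?_
  · intro c hc
    rw [mem_filter] at hc
    obtain ⟨_, h1, h2, h3⟩ := hc
    rcases c with i | i
    · rcases hvc : v (inl i) with j | b
      · rw [hvc] at h2; exact h2.elim
      · rw [hvc] at h2 h3
        simp only [loLt_inr] at h2 h3
        rw [mem_filter, mem_range]
        simp only [lowOf]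
        exact ⟨b.2, ⟨i, b, hvc, rfl⟩, by omega, h2⟩
    · exact h1.elim
  · intro c hc c' hc' he
    rw [mem_filter] at hc hc'
    obtain ⟨_, h1, h2, h3⟩ := hc
    obtain ⟨_, h1', h2', h3'⟩ := hc'
    apply v.injective
    revert he h2 h2'
    rcases v c with j | b <;> rcases v c' with j' | b' <;> simp [lowOf]
    intro h _ _; exact Fin.ext h
  · intro y hy
    rw [mem_filter] at hy
    obtain ⟨_, ⟨i, b, hvb, hb⟩, h1, h2⟩ := hy
    refine ⟨inl i, ?_, ?_⟩
    · rw [mem_filter, hvb]
      simp only [loLt_inr]
      exact ⟨mem_univ _, trivial, by omega, by omega⟩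
    · rw [hvb]; exact hb

open scoped Classical in
theorem card_VL {v : G k} (hv : Band v) : 4 * (VL v).card ≤ k := by
  have h := few_bad (VL v) (range k)
    (fun s => (range k).filter (fun y => LLval v y ∧ lowOf (v (inl s)) ≤ y ∧ y < thr v s))
    (fun s => nL v s (thr v s)) (fun s _ => Finset.filter_subset _ _)
    (fun s _ => by
      have := nL_eq hv s.2 (cLL_thr v s)
      show 1 ≤ nL v s (thr v s)
      omega)
    (fun s hs => by
      rw [VL, mem_filter] at hs
      obtain ⟨_, _, _, a, hva, _, h3⟩ := hs
      show 54 * nL v s (thr v s) ≤ _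
      rw [card_LLint, hva]
      exact h3.le)
    (by
      intro s hs y hy
      have hs' := hs
      rw [VL, mem_filter] at hs'
      obtain ⟨_, hrr, hll, a, hva, h2, h3⟩ := hs'
      simp only [mem_filter, mem_range] at hy
      obtain ⟨hyk, hyl, hya, hyt⟩ := hy
      show _ ≤ nL v s (thr v s) + _
      rw [nL_eq hv s.2 (cLL_thr v s)]
      have hsplit : (VL v).filter (fun j => y ∈ (range k).filter
          (fun y => LLval v y ∧ lowOf (v (inl j)) ≤ y ∧ y < thr v j))
          ⊆ ((VL v).filter (fun j => (y ∈ (range k).filter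
          (fun y => LLval v y ∧ lowOf (v (inl j)) ≤ y ∧ y < thr v j)) ∧ s ≤ j))
          ∪ ((VL v).filter (fun j => (y ∈ (range k).filter
          (fun y => LLval v y ∧ lowOf (v (inl j)) ≤ y ∧ y < thr v j)) ∧ j < s)) := by
        intro j hj
        have hj1 := mem_filter.1 hj
        rcases le_or_gt s j with h | h
        · exact mem_union.2 (Or.inl (mem_filter.2 ⟨hj1.1, hj1.2, h⟩))
        · exact mem_union.2 (Or.inr (mem_filter.2 ⟨hj1.1, hj1.2, h⟩))
      refine (Finset.card_le_card hsplit).trans ((Finset.card_union_le _ _).trans ?_)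
      refine Nat.add_le_add ?_ ?_
      · -- s ≤ j
        have h4 : ((VL v).filter (fun j => (y ∈ (range k).filter
          (fun y => LLval v y ∧ lowOf (v (inl j)) ≤ y ∧ y < thr v j)) ∧ s ≤ j)).card ≤
          (insert (inl s) (univ.filter (fun c => isL c ∧ ¬ colOK s (thr v s) c ∧
            loLt (thr v s) (v c)))).card := by
          refine Finset.card_le_card_of_injOn (fun j => inl j) ?_ ?_
          · intro j hj
            simp only [coe_filter, Set.mem_ofPred_eq, mem_filter, mem_range] at hj
            obtain ⟨hjV, ⟨_, _, hj2, _⟩, hj4⟩ := hj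
            rw [VL, mem_filter] at hjV
            obtain ⟨_, _, _, b, hvb, _, _⟩ := hjV
            rw [Finset.coe_insert, Set.mem_insert_iff]
            by_cases e : j = s
            · left; rw [e]
            · right
              simp only [coe_filter, Set.mem_ofPred_eq, mem_univ, true_and]
              refine ⟨trivial, ?_, ?_⟩
              · simp only [colOK_inl]
                have e2 : j.val ≠ s.val := fun h => e (Fin.ext h)
                have e3 : s.val ≤ j.val := hj4
                omega
              · rw [hvb] at hj2 ⊢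
                simp only [lowOf] at hj2
                simp only [loLt_inr]
                omega
          · intro a _ b _ h; simpa using h
        refine h4.trans ((Finset.card_insert_le _ _).trans ?_)
        rw [bel, cnt_def]
        omega
      · -- j < s
        refine Finset.card_le_card_of_injOn (fun j => thr v j) ?_ ?_
        · intro j hj
          simp only [coe_filter, Set.mem_ofPred_eq, mem_filter, mem_range] at hj
          obtain ⟨hjV, ⟨_, _, _, hj3⟩, hj4⟩ := hj
          rw [VL, mem_filter] at hjV
          obtain ⟨_, hjr, hjl, _⟩ := hjV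
          simp only [coe_filter, Set.mem_ofPred_eq, mem_filter, mem_range]
          exact ⟨⟨thr_lt_k hjr, hjl, by omega, thr_lt hjr hj4⟩, hj3⟩
        · intro j hj j' hj' he
          simp only [coe_filter, Set.mem_ofPred_eq, mem_filter] at hj hj'
          obtain ⟨hjV, _⟩ := hj
          obtain ⟨hjV', _⟩ := hj'
          rw [VL, mem_filter] at hjV hjV'
          obtain ⟨_, hjr, _⟩ := hjV
          obtain ⟨_, hjr', _⟩ := hjV'
          rcases lt_trichotomy j j' with h | h | h
          · exact absurd he (thr_lt hjr h).ne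
          · exact h
          · exact absurd he (thr_lt hjr' h).ne')
  rw [Finset.card_range] at h
  exact h

end Vale.Agent.P235.H216
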