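/-
P235-M, helper216.  The static statement (S), part 6: mirror image, final count, theorem.
-/
import Vale.Agent.P235.R2.H216.SBad

namespace Vale.Agent.P235.H216

open Finset Equiv Sum

variable {k : ℕ}

/-! ### mirror image -/

/-- rotation of the picture -/
def mir (v : G k) : G k := Equiv.sumComm (Fin k) (Fin k) * v * Equiv.sumComm (Fin k) (Fin k)

theorem mir_apply (v : G k) (c : Fin k ⊕ Fin k) : mir v c = Sum.swap (v (Sum.swap c)) := rfl

theorem mir_mir (v : G k) : mir (mir v) = v := by
  ext c
  rw [mir_apply, mir_apply]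
  simp

theorem cnt_mir (v : G k) (P : Fin k ⊕ Fin k → Fin k ⊕ Fin k → Prop) :
    cnt (mir v) P = cnt v (fun c y => P (Sum.swap c) (Sum.swap y)) := by
  classical
  rw [cnt_def, cnt_def]
  refine Finset.card_bij (fun c _ => Sum.swap c) ?_ ?_ ?_
  · intro c hc
    rw [mem_filter] at hc ⊢
    refine ⟨mem_univ _, ?_⟩
    have h := hc.2
    rw [mir_apply] at h
    rw [Sum.swap_swap]
    exact h
  · intro a _ b _ h
    have := congrArg Sum.swap h
    simpa using this
  · intro c hc
    rw [mem_filter] at hc
    refine ⟨Sum.swap c, ?_, by simp⟩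
    rw [mem_filter]
    refine ⟨mem_univ _, ?_⟩
    rw [mir_apply, Sum.swap_swap]
    exact hc.2

theorem cLL_mir (v : G k) (t : ℕ) : cLL (mir v) t = cRR v t := by
  unfold cLL cRR
  rw [cnt_mir]
  refine cnt_congr fun c => ?_
  rcases c with c | c <;> rcases v _ with y | y <;> simp

theorem cRR_mir (v : G k) (t : ℕ) : cRR (mir v) t = cLL v t := by
  rw [← cLL_mir, mir_mir]

theorem nhi_mir (v : G k) (s t : ℕ) : nhi (mir v) t s = nlo v s t := by
  unfold nhi nlo
  rw [cnt_mir]
  refine cnt_congr fun c => ?_
  rcases c with c | c <;> rcases v _ with y | y <;> simp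

theorem nlo_mir (v : G k) (s t : ℕ) : nlo (mir v) t s = nhi v s t := by
  rw [← nhi_mir, mir_mir]

theorem rr_mir (v : G k) : rr (mir v) = rr v := by
  have h1 := cLL_k_add_rr (mir v)
  have h2 := cRR_k_add_rr v
  rw [cLL_mir] at h1
  omega

theorem band_mir {v : G k} (hv : Band v) : Band (mir v) := by
  constructor
  · intro i j hij
    rw [mir_apply] at hij
    simp only [Sum.swap_inl] at hij
    have h : v (inr i) = inr j := by
      have := congrArg Sum.swap hij
      simpa using this
    exact hv.2 i j h
  · intro i j hij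
    rw [mir_apply] at hij
    simp only [Sum.swap_inr] at hij
    have h : v (inl i) = inl j := by
      have := congrArg Sum.swap hij
      simpa using this
    exact hv.1 i j h

theorem pos_swap (c : Fin k ⊕ Fin k) : pos (Sum.swap c) = - pos c := by
  rcases c with i | i <;> simp [pos]

theorem val_swap (c : Fin k ⊕ Fin k) : val (Sum.swap c) = - val c := by
  rcases c with i | i <;> simp [val]

theorem mir_mul_swap (v : G k) (c c' : Fin k ⊕ Fin k) :
    mir (v * Equiv.swap c c') = mir v * Equiv.swap (Sum.swap c') (Sum.swap c) := by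
  ext x
  rw [mir_apply, Perm.mul_apply, Perm.mul_apply, mir_apply]
  congr 2
  rw [Equiv.swap_comm (Sum.swap c') (Sum.swap c)]
  by_cases h1 : x = Sum.swap c
  · subst h1; simp
  by_cases h2 : x = Sum.swap c'
  · subst h2; simp
  · rw [Equiv.swap_apply_of_ne_of_ne h1 h2, Equiv.swap_apply_of_ne_of_ne]
    · intro h; apply h1; rw [← h]; simp
    · intro h; apply h2; rw [← h]; simp

theorem incB_mir {f : G k → ℝ} (hf : IncB f) : IncB (fun v => f (mir v)) := by
  intro v hv c c' h1 h2 h3
  show f (mir v) ≤ f (mir (v * Equiv.swap c c'))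
  rw [mir_mul_swap]
  refine hf (mir v) (band_mir hv) _ _ ?_ ?_ ?_
  · rw [pos_swap, pos_swap]; omega
  · rw [mir_apply, mir_apply, Sum.swap_swap, Sum.swap_swap, val_swap, val_swap]; omega
  · rw [← mir_mul_swap]; exact band_mir h3

/-! ### the count -/

theorem RRval_mir {v : G k} {s : Fin k} : RRval (mir v) s ↔ LLval v s.val := by
  constructor
  · rintro ⟨i, hi⟩
    rw [mir_apply] at hi
    simp only [Sum.swap_inr] at hi
    refine ⟨i, s, ?_, rfl⟩
    have := congrArg Sum.swap hi
    simpa using this
  · rintro ⟨i, a, hi, ha⟩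
    refine ⟨i, ?_⟩
    rw [mir_apply]
    simp only [Sum.swap_inr]
    rw [hi]
    have : a = s := Fin.ext ha
    rw [this]; rfl

theorem LLval_mir {v : G k} {s : Fin k} : LLval (mir v) s.val ↔ RRval v s := by
  rw [← RRval_mir, mir_mir]

open scoped Classical in
/-- RR values -/
noncomputable def S0 (v : G k) : Finset (Fin k) := univ.filter (RRval v)

open scoped Classical in
theorem card_S0 (v : G k) : (S0 v).card + rr v = k := by
  refine Eq.trans ?_ (cRR_k_add_rr v)
  congr 1
  rw [cRR, cnt_def, S0]
  refine Finset.card_bij (fun s _ => v.symm (inl s)) ?_ ?_ ?_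
  · intro s hs
    rw [mem_filter] at hs ⊢
    obtain ⟨i, hi⟩ := hs.2
    refine ⟨mem_univ _, ?_⟩
    have h : v.symm (inl s) = inr i := by rw [Equiv.symm_apply_eq]; exact hi.symm
    rw [h, hi]
    exact ⟨fun h => h, s.2⟩
  · intro a _ b _ h
    have := v.symm.injective h
    simpa using this
  · intro c hc
    rw [mem_filter] at hc
    obtain ⟨_, h1, h2⟩ := hc
    rcases c with i | i
    · exact (h1 trivial).elim
    · rcases hvi : v (inr i) with j | a
      · refine ⟨j, ?_, ?_⟩
        · rw [mem_filter]; exact ⟨mem_univ _, i, hvi⟩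
        · rw [Equiv.symm_apply_eq]; exact hvi.symm
      · rw [hvi] at h2; exact h2.elim

open scoped Classical in
/-- pulling back along the (injective) threshold map -/
theorem card_pull (v : G k) (X : Finset (Fin k)) :
    ((S0 v).filter (fun s : Fin k => ∃ t ∈ X, t.val = thr v s)).card ≤ X.card := by
  have h : (X.image (fun t : Fin k => t.val)).card ≤ X.card := Finset.card_image_le
  refine le_trans ?_ h
  refine Finset.card_le_card_of_injOn (fun s : Fin k => thr v s) ?_ ?_
  · intro s hs
    rw [coe_filter, Set.mem_ofPred_eq] at hs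
    obtain ⟨_, t, ht, he⟩ := hs
    simp only [coe_image, Set.mem_image, mem_coe]
    exact ⟨t, ht, he⟩
  · intro s hs s' hs' he
    rw [coe_filter, Set.mem_ofPred_eq] at hs hs'
    have h1 := hs.1
    have h2 := hs'.1
    rw [S0, mem_filter] at h1 h2
    simp only at he
    rcases lt_trichotomy s s' with h | h | h
    · exact absurd he (thr_lt h1.2 h).ne
    · exact h
    · exact absurd he (thr_lt h2.2 h).ne'

open scoped Classical in
theorem card_notLL (v : G k) :
    (univ.filter (fun t : Fin k => ¬ LLval v t.val)).card = rr v := by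
  have h1 : (univ.filter (fun t : Fin k => LLval v t.val)).card + rr v = k := by
    have h := card_S0 (mir v)
    rw [rr_mir] at h
    refine Eq.trans ?_ h
    congr 2
    rw [S0]
    ext t
    rw [mem_filter, mem_filter, RRval_mir]
  have h2 := Finset.card_filter_add_card_filter_not (s := (univ : Finset (Fin k)))
    (fun t : Fin k => LLval v t.val)
  rw [Finset.card_univ, Fintype.card_fin] at h2
  omega

open scoped Classical in
theorem card_notRR (v : G k) :
    (univ.filter (fun t : Fin k => ¬ RRval v t)).card = rr v := by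
  have h := card_notLL (mir v)
  rw [rr_mir] at h
  rw [← h]
  congr 1
  ext t
  rw [mem_filter, mem_filter, LLval_mir]

open scoped Classical in
theorem card_colLU (v : G k) :
    (univ.filter (fun s : Fin k => isL (v (inl s)))).card = rr v := by
  rw [rr, cnt_def]
  refine Finset.card_bij (fun s _ => inl s) ?_ ?_ ?_
  · intro s hs
    rw [mem_filter] at hs ⊢
    exact ⟨mem_univ _, trivial, hs.2⟩
  · intro a _ b _ h; simpa using h
  · rintro (i | i) hc
    · rw [mem_filter] at hc
      refine ⟨i, ?_, rfl⟩
      rw [mem_filter]; exact ⟨mem_univ _, hc.2.2⟩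
    · rw [mem_filter] at hc
      exact hc.2.1.elim

open scoped Classical in
theorem card_colRD (v : G k) :
    (univ.filter (fun t : Fin k => ¬ isL (v (inr t)))).card = rr v := by
  have h := card_colLU (mir v)
  rw [rr_mir] at h
  rw [← h]
  congr 1
  ext t
  rw [mem_filter, mem_filter, mir_apply]
  simp only [Sum.swap_inl, mem_univ, true_and]
  rcases v (inr t) with y | y <;> simp

open scoped Classical in
/-- the allowed thresholds -/
noncomputable def Al (v : G k) : Finset (Fin k) := univ.filter (fun s => MA s v ∨ MD s v)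

/-- the threshold pairing is symmetric at clean places -/
theorem thr_mir {v : G k} {s : Fin k} (h : s.val = 0 ∨ ∃ s' : Fin k, s'.val + 1 = s.val ∧ RRval v s') :
    thr (mir v) (thr v s) = s.val := by
  refine le_antisymm ?_ ?_
  · refine thr_le _ ?_
    rw [cRR_mir, cLL_mir, cLL_thr]
  · rcases h with h | ⟨s', h1, h2⟩
    · omega
    · by_contra hc
      push Not at hc
      have h3 := thr_mem (mir v) (thr v s)
      rw [cRR_mir, cLL_mir, cLL_thr] at h3
      have h4 : cRR v (thr (mir v) (thr v s)) ≤ cRR v s' := cRR_mono v (by omega)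
      have h5 := cRR_lt h2 (s' := s.val) (by omega)
      omega

open scoped Classical in
/-- **the count**: every band permutation has many allowed thresholds on one of the two sides -/
theorem count {v : G k} (hv : Band v) :
    k ≤ 10 * rr v + 2 * ((Al v).card + (Al (mir v)).card) := by
  set pull : Finset (Fin k) → Finset (Fin k) :=
    fun X => (S0 v).filter (fun s : Fin k => ∃ t ∈ X, t.val = thr v s) with hpull
  set X1 := univ.filter (fun t : Fin k => ¬ LLval v t.val) with hX1
  set X4 := univ.filter (fun t : Fin k => ¬ isL (v (inr t))) with hX4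
  set E3 := univ.filter (fun s : Fin k => isL (v (inl s))) with hE3
  set E2 := univ.filter (fun s : Fin k => ∃ s' : Fin k, s'.val + 1 = s.val ∧ ¬ RRval v s') with hE2
  have hcover : S0 v ⊆ pull X1 ∪ (E2 ∪ (E3 ∪ (pull X4 ∪ (VL v ∪ (pull (VL (mir v)) ∪
      (Al v ∪ pull (Al (mir v)))))))) := by
    intro s hs
    by_contra hc
    simp only [mem_union, not_or] at hc
    obtain ⟨c1, c2, c3, c4, c5, c6, c7, c8⟩ := hc
    have hsR : RRval v s := by rw [S0, mem_filter] at hs; exact hs.2
    have htk : thr v s < k := thr_lt_k hsR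
    set t : Fin k := ⟨thr v s, htk⟩ with ht
    have htv : t.val = thr v s := rfl
    have d1 : LLval v (thr v s) := by
      by_contra h
      exact c1 (mem_filter.2 ⟨hs, t, mem_filter.2 ⟨mem_univ _, h⟩, rfl⟩)
    have d2 : s.val = 0 ∨ ∃ s' : Fin k, s'.val + 1 = s.val ∧ RRval v s' := by
      rcases Nat.eq_zero_or_pos s.val with h | h
      · exact Or.inl h
      · right
        have hlt : s.val - 1 < k := by have := s.2; omega
        refine ⟨⟨s.val - 1, hlt⟩, by simp only []; omega, ?_⟩
        by_contra h'
        exact c2 (mem_filter.2 ⟨mem_univ _, ⟨s.val - 1, hlt⟩, by simp only []; omega, h'⟩)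
    have d3 : ¬ isL (v (inl s)) := fun h => c3 (mem_filter.2 ⟨mem_univ _, h⟩)
    have d4 : isL (v (inr t)) := by
      by_contra h
      exact c4 (mem_filter.2 ⟨hs, t, mem_filter.2 ⟨mem_univ _, h⟩, rfl⟩)
    have hthr : thr (mir v) t = s.val := thr_mir d2
    rcases le_total (nlo v s (thr v s)) (nhi v s (thr v s)) with hu | hu
    · -- left use
      apply c7
      rw [Al, mem_filter]
      refine ⟨mem_univ _, ?_⟩
      rcases hvs : v (inl s) with j | a
      · rw [hvs] at d3; exact (d3 trivial).elim
      · rcases le_or_gt (thr v s) a.val with h | h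
        · exact Or.inl ⟨⟨hv, hu⟩, a, hvs, h⟩
        · right
          refine ⟨⟨hv, hu⟩, a, hvs, h, ?_⟩
          by_contra hd
          push Not at hd
          apply c5
          rw [VL, mem_filter]
          exact ⟨mem_univ _, hsR, d1, a, hvs, h, hd⟩
    · -- right use
      apply c8
      refine mem_filter.2 ⟨hs, t, ?_, rfl⟩
      rw [Al, mem_filter]
      refine ⟨mem_univ _, ?_⟩
      have huse : Use (mir v) t := by
        refine ⟨band_mir hv, ?_⟩
        rw [hthr, nlo_mir, nhi_mir]; exact hu
      rcases hvt : v (inr t) with j | a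
      · have hm : mir v (inl t) = inr j := by
          rw [mir_apply]; simp only [Sum.swap_inl]; rw [hvt]; rfl
        rcases le_or_gt (thr (mir v) t) j.val with h | h
        · exact Or.inl ⟨huse, j, hm, h⟩
        · right
          refine ⟨huse, j, hm, h, ?_⟩
          by_contra hd
          push Not at hd
          apply c6
          refine mem_filter.2 ⟨hs, t, ?_, rfl⟩
          rw [VL, mem_filter]
          refine ⟨mem_univ _, RRval_mir.2 d1, ?_, j, hm, h, hd⟩
          rw [hthr]; exact LLval_mir.2 hsR
      · rw [hvt] at d4; exact d4.elim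
  have b0 := card_S0 v
  have b1 : (pull X1).card ≤ rr v := (card_pull v X1).trans (card_notLL v).le
  have b2 : E2.card ≤ rr v := by
    rw [← card_notRR v]
    have : E2.card ≤ ((univ.filter (fun t : Fin k => ¬ RRval v t)).image
        (fun t : Fin k => t.val + 1)).card := by
      refine Finset.card_le_card_of_injOn (fun s => s.val) ?_ ?_
      · intro s hs
        rw [hE2, coe_filter, Set.mem_ofPred_eq] at hs
        obtain ⟨_, s', h1, h2⟩ := hs
        simp only [coe_image, Set.mem_image, coe_filter, Set.mem_ofPred_eq, mem_univ, true_and]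
        exact ⟨s', h2, h1⟩
      · intro a _ b _ h; exact Fin.ext h
    exact this.trans Finset.card_image_le
  have b3 : E3.card = rr v := card_colLU v
  have b4 : (pull X4).card ≤ rr v := (card_pull v X4).trans (card_colRD v).le
  have b5 := card_VL hv
  have b6 : (pull (VL (mir v))).card ≤ (VL (mir v)).card := card_pull v _
  have b6' := card_VL (band_mir hv)
  have b8 : (pull (Al (mir v))).card ≤ (Al (mir v)).card := card_pull v _
  have hc := Finset.card_le_card hcover
  have e1 := Finset.card_union_le (pull X1) (E2 ∪ (E3 ∪ (pull X4 ∪ (VL v ∪ (pull (VL (mir v)) ∪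
      (Al v ∪ pull (Al (mir v))))))))
  have e2 := Finset.card_union_le E2 (E3 ∪ (pull X4 ∪ (VL v ∪ (pull (VL (mir v)) ∪
      (Al v ∪ pull (Al (mir v)))))))
  have e3 := Finset.card_union_le E3 (pull X4 ∪ (VL v ∪ (pull (VL (mir v)) ∪
      (Al v ∪ pull (Al (mir v))))))
  have e4 := Finset.card_union_le (pull X4) (VL v ∪ (pull (VL (mir v)) ∪
      (Al v ∪ pull (Al (mir v)))))
  have e5 := Finset.card_union_le (VL v) (pull (VL (mir v)) ∪
      (Al v ∪ pull (Al (mir v))))
  have e6 := Finset.card_union_le (pull (VL (mir v))) (Al v ∪ pull (Al (mir v)))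
  have e7 := Finset.card_union_le (Al v) (pull (Al (mir v)))
  omega

open scoped Classical in
/-- the left side: flux bound -/
theorem left_flux {f : G k → ℝ} (hf0 : ∀ v, 0 ≤ f v) (hf : IncB f) :
    ∑ v ∈ univ.filter (Band (k := k)), f v * ((Al v).card : ℝ) ≤
      109 * ∑ v ∈ univ.filter (Band (k := k)), f v * (rr v : ℝ) := by
  have h1 : ∀ s : Fin k, ∑ v ∈ univ.filter (fun v : G k => MA s v ∨ MD s v), f v ≤
      109 * ∑ v ∈ univ.filter (MB s), f v := by
    intro s
    have e1 := stage1 hf0 hf s
    have e2 := stage2 hf0 hf s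
    have e3 : ∑ v ∈ univ.filter (fun v : G k => MA s v ∨ MD s v), f v ≤
        ∑ v ∈ univ.filter (MA s), f v + ∑ v ∈ univ.filter (MD s), f v := by
      rw [Finset.filter_or]
      have := Finset.sum_union_inter (s₁ := univ.filter (MA s)) (s₂ := univ.filter (MD s)) (f := f)
      have h2 : 0 ≤ ∑ v ∈ univ.filter (MA s) ∩ univ.filter (MD s), f v :=
        Finset.sum_nonneg fun v _ => hf0 v
      linarith
    linarith
  have h2 : ∑ v ∈ univ.filter (Band (k := k)), f v * ((Al v).card : ℝ)
      = ∑ s : Fin k, ∑ v ∈ univ.filter (fun v : G k => MA s v ∨ MD s v), f v := by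
    have e1 : ∀ v : G k, f v * ((Al v).card : ℝ) = ∑ _s ∈ Al v, f v := by
      intro v; rw [Finset.sum_const, nsmul_eq_mul]; ring
    simp only [e1]
    refine Finset.sum_comm' ?_
    intro v s
    simp only [mem_filter, mem_univ, true_and, Al]
    constructor
    · rintro ⟨_, h⟩; exact ⟨h, trivial⟩
    · rintro ⟨h, _⟩
      refine ⟨?_, h⟩
      rcases h with h | h
      · exact h.1.1
      · exact h.1.1
  have h3 : ∑ s : Fin k, ∑ v ∈ univ.filter (MB s), f v ≤
      ∑ v ∈ univ.filter (Band (k := k)), f v * (rr v : ℝ) := by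
    have e1 : ∀ v : G k, f v * (rr v : ℝ) =
        ∑ _s ∈ univ.filter (fun s : Fin k => isL (v (inl s))), f v := by
      intro v; rw [Finset.sum_const, nsmul_eq_mul, card_colLU]; ring
    simp only [e1]
    rw [Finset.sum_comm' (t' := univ) (s' := fun s : Fin k =>
      univ.filter (fun v : G k => Band v ∧ isL (v (inl s)))) (by
        intro v s
        simp only [mem_filter, mem_univ, true_and, and_true])]
    refine Finset.sum_le_sum fun s _ => ?_
    refine Finset.sum_le_sum_of_subset_of_nonneg ?_ fun v _ _ => hf0 v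
    intro v hv
    rw [mem_filter] at hv ⊢
    exact ⟨mem_univ _, hv.2.1.1, hv.2.2⟩
  rw [h2]
  calc ∑ s : Fin k, ∑ v ∈ univ.filter (fun v : G k => MA s v ∨ MD s v), f v
      ≤ ∑ s : Fin k, 109 * ∑ v ∈ univ.filter (MB s), f v := Finset.sum_le_sum fun s _ => h1 s
    _ = 109 * ∑ s : Fin k, ∑ v ∈ univ.filter (MB s), f v := by rw [Finset.mul_sum]
    _ ≤ _ := by linarith

open scoped Classical in
/-- **Static statement (S)**: for every nonnegative weight increasing along up-swaps of the band,
`k ∑ f ≤ 446 ∑ f r`. -/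
theorem static_S {f : G k → ℝ} (hf0 : ∀ v, 0 ≤ f v) (hf : IncB f) :
    (k : ℝ) * ∑ v ∈ univ.filter (Band (k := k)), f v ≤
      446 * ∑ v ∈ univ.filter (Band (k := k)), f v * (rr v : ℝ) := by
  have h1 := left_flux hf0 hf
  have h2 := left_flux (f := fun v => f (mir v)) (fun v => hf0 _) (incB_mir hf)
  have hre : ∀ g : G k → ℝ, ∑ v ∈ univ.filter (Band (k := k)), g v
      = ∑ v ∈ univ.filter (Band (k := k)), g (mir v) := by
    intro g
    refine Finset.sum_nbij' mir mir ?_ ?_ ?_ ?_ ?_
    · intro v hv; rw [mem_filter] at hv ⊢; exact ⟨mem_univ _, band_mir hv.2⟩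
    · intro v hv; rw [mem_filter] at hv ⊢; exact ⟨mem_univ _, band_mir hv.2⟩
    · intro v _; exact mir_mir v
    · intro v _; exact mir_mir v
    · intro v _; rw [mir_mir]
  have h3 : ∑ v ∈ univ.filter (Band (k := k)), f (mir v) * ((Al v).card : ℝ)
      = ∑ v ∈ univ.filter (Band (k := k)), f v * ((Al (mir v)).card : ℝ) := by
    rw [hre (fun v => f (mir v) * ((Al v).card : ℝ))]
    refine Finset.sum_congr rfl fun v _ => ?_
    rw [mir_mir]
  have h4 : ∑ v ∈ univ.filter (Band (k := k)), f (mir v) * (rr v : ℝ)
      = ∑ v ∈ univ.filter (Band (k := k)), f v * (rr v : ℝ) := by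
    rw [hre (fun v => f (mir v) * (rr v : ℝ))]
    refine Finset.sum_congr rfl fun v _ => ?_
    rw [mir_mir, rr_mir]
  rw [h3, h4] at h2
  have h5 : (k : ℝ) * ∑ v ∈ univ.filter (Band (k := k)), f v ≤
      ∑ v ∈ univ.filter (Band (k := k)), (10 * (f v * (rr v : ℝ)) +
        2 * (f v * ((Al v).card : ℝ) + f v * ((Al (mir v)).card : ℝ))) := by
    rw [Finset.mul_sum]
    refine Finset.sum_le_sum fun v hv => ?_
    rw [mem_filter] at hv
    have h := count hv.2
    have h' : (k : ℝ) ≤ 10 * (rr v : ℝ) + 2 * (((Al v).card : ℝ) + ((Al (mir v)).card : ℝ)) := by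
      exact_mod_cast h
    nlinarith [hf0 v]
  rw [Finset.sum_add_distrib, ← Finset.mul_sum, ← Finset.mul_sum, Finset.sum_add_distrib] at h5
  linarith

end Vale.Agent.P235.H216
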