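/-
P235-M, helper216.  Transfer of the static statement (S) to `GammaConst` of helper549.
-/
import Vale.Agent.P235.R2.H216.SFinal
import Vale.Agent.P235.R2.H549.Gamma

namespace Vale.Agent.P235.H216

open Finset Equiv Sum VPBruhat

variable {k : ℕ}

/-- positions -/
def posF : Fin k ⊕ Fin k → Fin (2 * k)
  | inl i => ⟨k - 1 - i, by have := i.2; omega⟩
  | inr i => ⟨k + i, by have := i.2; omega⟩

/-- values -/
def valF : Fin k ⊕ Fin k → Fin (2 * k)
  | inl j => ⟨2 * k - 1 - j, by have := j.2; omega⟩
  | inr a => ⟨a, by have := a.2; omega⟩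

theorem posF_inj : Function.Injective (posF (k := k)) := by
  rintro (i | i) (j | j) h <;> simp only [posF, Fin.mk.injEq] at h <;>
    have h1 := i.2 <;> have h2 := j.2
  · congr 1; apply Fin.ext; omega
  · omega
  · omega
  · congr 1; apply Fin.ext; omega

theorem valF_inj : Function.Injective (valF (k := k)) := by
  rintro (i | i) (j | j) h <;> simp only [valF, Fin.mk.injEq] at h <;>
    have h1 := i.2 <;> have h2 := j.2
  · congr 1; apply Fin.ext; omega
  · omega
  · omega
  · congr 1; apply Fin.ext; omega

theorem card_eq : Fintype.card (Fin k ⊕ Fin k) = Fintype.card (Fin (2 * k)) := by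
  simp; ring

/-- positions, as an equivalence -/
noncomputable def posE : Fin k ⊕ Fin k ≃ Fin (2 * k) :=
  Equiv.ofBijective posF ((Fintype.bijective_iff_injective_and_card _).2 ⟨posF_inj, card_eq⟩)

/-- values, as an equivalence -/
noncomputable def valE : Fin k ⊕ Fin k ≃ Fin (2 * k) :=
  Equiv.ofBijective valF ((Fintype.bijective_iff_injective_and_card _).2 ⟨valF_inj, card_eq⟩)

theorem posE_apply (c : Fin k ⊕ Fin k) : posE c = posF c := rfl
theorem valE_apply (c : Fin k ⊕ Fin k) : valE c = valF c := rfl

theorem pos_lt {c c' : Fin k ⊕ Fin k} : pos c < pos c' ↔ posE c < posE c' := by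
  rw [posE_apply, posE_apply, Fin.lt_def]
  rcases c with i | i <;> rcases c' with j | j <;> simp only [pos, posF] <;>
    have h1 := i.2 <;> have h2 := j.2 <;> omega

theorem val_lt {c c' : Fin k ⊕ Fin k} : val c < val c' ↔ valE c < valE c' := by
  rw [valE_apply, valE_apply, Fin.lt_def]
  rcases c with i | i <;> rcases c' with j | j <;> simp only [val, valF] <;>
    have h1 := i.2 <;> have h2 := j.2 <;> omega

/-- the relabelling -/
noncomputable def Phi (v : G k) : Perm (Fin (2 * k)) := posE.symm.trans (v.trans valE)

theorem Phi_apply (v : G k) (c : Fin k ⊕ Fin k) : Phi v (posE c) = valE (v c) := by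
  simp [Phi]

theorem Phi_inj : Function.Injective (Phi (k := k)) := by
  intro v w h
  ext c
  have h1 : Phi v (posE c) = Phi w (posE c) := by rw [h]
  rw [Phi_apply, Phi_apply] at h1
  rw [valE.injective h1]

theorem Phi_surj : Function.Surjective (Phi (k := k)) := by
  intro w
  refine ⟨posE.trans (w.trans valE.symm), ?_⟩
  ext x
  simp [Phi]

theorem Phi_mul_swap (v : G k) (c c' : Fin k ⊕ Fin k) :
    Phi (v * swap c c') = Phi v * swap (posE c) (posE c') := by
  ext x
  obtain ⟨d, rfl⟩ := posE.surjective x
  rw [Phi_apply, Perm.mul_apply, Perm.mul_apply]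
  have : (swap (posE c) (posE c')) (posE d) = posE (swap c c' d) := by
    exact posE.injective.swap_apply c c' d
  rw [this, Phi_apply]

theorem band_iff (v : G k) : Band v ↔ Phi v ∈ band k := by
  rw [band, mem_filter]
  constructor
  · intro hv
    refine ⟨mem_univ _, fun x => ?_⟩
    obtain ⟨c, rfl⟩ := posE.surjective x
    rw [Phi_apply, posE_apply, valE_apply]
    rcases c with i | i
    · rcases h : v (inl i) with j | j
      · have h1 := Fin.le_def.1 (hv.1 i j h)
        have h2 := i.2
        have h3 := j.2
        simp only [posF, valF]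
        omega
      · have h2 := i.2
        have h3 := j.2
        simp only [posF, valF]
        omega
    · rcases h : v (inr i) with j | j
      · have h2 := i.2
        have h3 := j.2
        simp only [posF, valF]
        omega
      · have h1 := Fin.le_def.1 (hv.2 i j h)
        have h2 := i.2
        have h3 := j.2
        simp only [posF, valF]
        omega
  · rintro ⟨_, hv⟩
    constructor
    · intro i j h
      have h1 := hv (posE (inl i))
      rw [Phi_apply, posE_apply, valE_apply, h] at h1
      simp only [posF, valF] at h1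
      have h2 := i.2
      have h3 := j.2
      exact Fin.le_def.2 (by omega)
    · intro i j h
      have h1 := hv (posE (inr i))
      rw [Phi_apply, posE_apply, valE_apply, h] at h1
      simp only [posF, valF] at h1
      have h2 := i.2
      have h3 := j.2
      exact Fin.le_def.2 (by omega)

theorem rr_eq_flux (v : G k) : rr v = flux k (Phi v) := by
  classical
  rw [rr, cnt_def, flux]
  refine Finset.card_bij (fun c _ => posE c) ?_ ?_ ?_
  · intro c hc
    rw [mem_filter] at hc ⊢
    refine ⟨mem_univ _, ?_⟩
    obtain ⟨_, h1, h2⟩ := hc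
    rw [Phi_apply, posE_apply, valE_apply]
    rcases c with i | i
    · rcases h : v (inl i) with j | j
      · have h2 := i.2
        have h3 := j.2
        simp only [posF, valF]
        omega
      · rw [h] at h2; exact h2.elim
    · exact h1.elim
  · intro a _ b _ h; exact posE.injective h
  · intro x hx
    rw [mem_filter] at hx
    obtain ⟨c, rfl⟩ := posE.surjective x
    obtain ⟨_, h1, h2⟩ := hx
    rw [Phi_apply] at h2
    rw [posE_apply] at h1
    rw [valE_apply] at h2
    refine ⟨c, ?_, rfl⟩
    rw [mem_filter]
    refine ⟨mem_univ _, ?_⟩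
    rcases c with i | i
    · refine ⟨trivial, ?_⟩
      rcases h : v (inl i) with j | j
      · trivial
      · rw [h] at h2
        simp only [valF] at h2
        have h3 := j.2
        omega
    · simp only [posF] at h1
      omega

open scoped Classical in
/-- **(S) = GammaConst**, constant `1/446`. -/
theorem gammaConst : GammaConst (1 / 446) := by
  refine ⟨by norm_num, ?_⟩
  intro k U hU
  set f : G k → ℝ := fun v => if Phi v ∈ U then 1 else 0 with hf
  have hf0 : ∀ v, 0 ≤ f v := fun v => by
    simp only [hf]; split_ifs <;> norm_num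
  have hinc : IncB f := by
    intro v hv c c' h1 h2 h3
    simp only [hf]
    by_cases h : Phi v ∈ U
    · have h4 : Phi (v * swap c c') ∈ U := by
        refine hU.2 _ _ h ((band_iff _).1 h3) ?_
        refine ⟨posE c, posE c', pos_lt.1 h1, ?_, Phi_mul_swap v c c'⟩
        rw [Phi_apply, Phi_apply]; exact val_lt.1 h2
      rw [if_pos h, if_pos h4]
    · rw [if_neg h]; split_ifs <;> norm_num
  have h := static_S hf0 hinc
  have key : ∀ g : Perm (Fin (2 * k)) → ℝ,
      ∑ v ∈ univ.filter (Band (k := k)), f v * g (Phi v) = ∑ w ∈ U, g w := by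
    intro g
    have e1 : ∑ v ∈ univ.filter (Band (k := k)), f v * g (Phi v)
        = ∑ v ∈ (univ.filter (Band (k := k))).filter (fun v => Phi v ∈ U), g (Phi v) := by
      rw [Finset.sum_filter (fun v => Phi v ∈ U) (fun v => g (Phi v))]
      refine Finset.sum_congr rfl fun v _ => ?_
      simp only [hf]
      split_ifs <;> simp
    rw [e1]
    refine Finset.sum_bij (fun v _ => Phi v) ?_ ?_ ?_ ?_
    · intro v hv; rw [mem_filter] at hv; exact hv.2
    · intro a _ b _ h; exact Phi_inj h
    · intro w hw
      obtain ⟨v, rfl⟩ := Phi_surj w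
      refine ⟨v, ?_, rfl⟩
      rw [mem_filter, mem_filter]
      exact ⟨⟨mem_univ _, (band_iff v).2 (hU.1 hw)⟩, hw⟩
    · intro v _; rfl
  have k1 := key (fun _ => 1)
  have k2 := key (fun w => (flux k w : ℝ))
  have k3 : ∑ v ∈ univ.filter (Band (k := k)), f v = (U.card : ℝ) := by
    simpa using k1
  have k4 : ∑ v ∈ univ.filter (Band (k := k)), f v * (rr v : ℝ) = ∑ w ∈ U, (flux k w : ℝ) := by
    rw [← k2]
    refine Finset.sum_congr rfl fun v _ => ?_
    rw [rr_eq_flux]
  rw [k3, k4] at h
  linarith

end Vale.Agent.P235.H216
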